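import Mathlib
import Crest.Prelude.Def_DaugavetL1

/-!
# The Daugavet property: from rank-one operators to cosets of finite-codimensional subspaces

`daugavet_coset`: in a real normed space with the (rank-one) Daugavet property, for every unit
vector `x`, every `z` in the unit ball, every closed finite-codimensional subspace `S` and `ε > 0`
there is `v ∈ z + S` with `‖v‖ ≤ 1 + ε` and `‖v + x‖ ≥ 2 - ε`.
-/

set_option autoImplicit false

namespace Crest.Agent.Helper67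

open Crest.AnalysisR.L1Subspace

section Slice

variable {V : Type*} [NormedAddCommGroup V] [NormedSpace ℝ V]

/-- Slice lemma: every slice of the unit ball contains `y` with `‖u + y‖ > 2 - ε`. -/
theorem daugavet_slice (hD : HasDaugavetProperty V) (ψ : V →L[ℝ] ℝ) (u : V) (hu : ‖u‖ = 1)
    (β ε : ℝ) (hβ : 0 < β) (hε : 0 < ε) :
    ∃ y : V, ‖y‖ ≤ 1 ∧ ‖ψ‖ - β < ψ y ∧ 2 - ε < ‖u + y‖ := by
  by_cases hψ : ψ = 0
  · refine ⟨u, hu.le, ?_, ?_⟩
    · subst hψ; simp [hβ]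
    · have : u + u = (2 : ℝ) • u := by rw [two_smul]
      rw [this, norm_smul, hu]; norm_num; linarith
  have hψpos : 0 < ‖ψ‖ := norm_pos_iff.mpr hψ
  -- normalised functional
  set φ : V →L[ℝ] ℝ := (‖ψ‖)⁻¹ • ψ with hφ
  have hφnorm : ‖φ‖ = 1 := by
    rw [hφ, norm_smul, norm_inv, norm_norm, inv_mul_cancel₀ hψpos.ne']
  have hDφ := hD φ u
  rw [ContinuousLinearMap.norm_smulRight_apply, hφnorm, hu] at hDφ
  -- choose δ
  set δ : ℝ := min (ε / 2) (β / ‖ψ‖) with hδ
  have hδpos : 0 < δ := lt_min (by linarith) (div_pos hβ hψpos)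
  have hδ1 : δ ≤ ε / 2 := min_le_left _ _
  have hδ2 : δ ≤ β / ‖ψ‖ := min_le_right _ _
  obtain ⟨v, hv1, hv2⟩ := ContinuousLinearMap.exists_lt_apply_of_lt_opNorm
    (ContinuousLinearMap.id ℝ V + φ.smulRight u) (r := 2 - δ) (by rw [hDφ]; linarith)
  have hv2' : 2 - δ < ‖v + φ v • u‖ := by simpa using hv2
  have hφv : |φ v| ≤ 1 := by
    have := φ.le_opNorm v
    rw [hφnorm, Real.norm_eq_abs] at this
    linarith
  have habs : 1 - δ < |φ v| := by
    have h1 : ‖v + φ v • u‖ ≤ ‖v‖ + |φ v| := by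
      calc ‖v + φ v • u‖ ≤ ‖v‖ + ‖φ v • u‖ := norm_add_le _ _
        _ = ‖v‖ + |φ v| := by rw [norm_smul, hu, mul_one, Real.norm_eq_abs]
    linarith
  -- sign
  obtain ⟨σ, hσ, hσv⟩ : ∃ σ : ℝ, (σ = 1 ∨ σ = -1) ∧ σ * φ v = |φ v| := by
    rcases le_total 0 (φ v) with h | h
    · exact ⟨1, Or.inl rfl, by rw [one_mul, abs_of_nonneg h]⟩
    · exact ⟨-1, Or.inr rfl, by rw [abs_of_nonpos h]; ring⟩
  have hσabs : |σ| = 1 := by rcases hσ with h | h <;> simp [h]
  refine ⟨σ • v, ?_, ?_, ?_⟩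
  · rw [norm_smul, Real.norm_eq_abs, hσabs, one_mul]; exact hv1.le
  · have h1 : ψ (σ • v) = ‖ψ‖ * |φ v| := by
      rw [map_smul, smul_eq_mul, ← hσv, hφ]
      simp only [smul_apply, smul_eq_mul]
      field_simp
    rw [h1]
    have h2 : ‖ψ‖ * δ ≤ β := by
      calc ‖ψ‖ * δ ≤ ‖ψ‖ * (β / ‖ψ‖) := by gcongr
        _ = β := by field_simp
    nlinarith
  · have h1 : φ (σ • v) = |φ v| := by rw [map_smul, smul_eq_mul, hσv]
    have h2 : ‖σ • v + φ (σ • v) • u‖ = ‖v + φ v • u‖ := by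
      have : σ • v + φ (σ • v) • u = σ • (v + φ v • u) := by
        rw [map_smul, smul_add, smul_smul, smul_eq_mul]
      rw [this, norm_smul, Real.norm_eq_abs, hσabs, one_mul]
    have h3 : u + σ • v = (σ • v + φ (σ • v) • u) + (1 - |φ v|) • u := by
      rw [h1, sub_smul, one_smul]; abel
    have h4 : ‖(1 - |φ v|) • u‖ = 1 - |φ v| := by
      rw [norm_smul, hu, mul_one, Real.norm_eq_abs, abs_of_nonneg (by linarith)]
    have h5 : ‖σ • v + φ (σ • v) • u‖ ≤ ‖u + σ • v‖ + ‖(1 - |φ v|) • u‖ := by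
      have : σ • v + φ (σ • v) • u = (u + σ • v) - (1 - |φ v|) • u := by
        rw [h3]; abel
      rw [this]; exact norm_sub_le _ _
    rw [h2, h4] at h5
    linarith

/-- Step lemma: given `w ≠ 0`, every slice contains `y` such that the norm is almost additive
along `w + l • y` for all `l ≥ 0`. -/
theorem daugavet_slice_step (hD : HasDaugavetProperty V) (ψ : V →L[ℝ] ℝ) (w : V) (hw : w ≠ 0)
    (β ε : ℝ) (hβ : 0 < β) (hε : 0 < ε) :
    ∃ y : V, ‖y‖ ≤ 1 ∧ ‖ψ‖ - β < ψ y ∧ ∀ l : ℝ, 0 ≤ l → (‖w‖ + l) * (1 - ε) ≤ ‖w + l • y‖ := by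
  have hwpos : 0 < ‖w‖ := norm_pos_iff.mpr hw
  set u : V := (‖w‖)⁻¹ • w with hu
  have hunorm : ‖u‖ = 1 := by
    rw [hu, norm_smul, norm_inv, norm_norm, inv_mul_cancel₀ hwpos.ne']
  have hwu : w = ‖w‖ • u := by
    rw [hu, smul_smul, mul_inv_cancel₀ hwpos.ne', one_smul]
  set ε' : ℝ := min ε 1 with hε'
  have hε'pos : 0 < ε' := lt_min hε one_pos
  have hε'1 : ε' ≤ ε := min_le_left _ _
  have hε'2 : ε' ≤ 1 := min_le_right _ _
  obtain ⟨y, hy1, hy2, hy3⟩ := daugavet_slice hD ψ u hunorm β ε' hβ hε'pos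
  refine ⟨y, hy1, hy2, ?_⟩
  intro l hl
  have hne : ‖u + y‖ ≠ 0 := by
    have : 0 < ‖u + y‖ := by linarith
    exact this.ne'
  obtain ⟨g, hg1, hg2⟩ := exists_dual_vector ℝ (u + y) hne
  have hg2' : g u + g y = ‖u + y‖ := by
    rw [← map_add]; simpa using hg2
  have hgu : g u ≤ 1 := by
    have := g.le_opNorm u
    rw [hg1, hunorm, one_mul, Real.norm_eq_abs] at this
    exact (le_abs_self _).trans this
  have hgy : g y ≤ 1 := by
    have := g.le_opNorm y
    rw [hg1, one_mul, Real.norm_eq_abs] at this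
    exact ((le_abs_self _).trans this).trans hy1
  have hgu' : 1 - ε ≤ g u := by linarith
  have hgy' : 1 - ε ≤ g y := by linarith
  have hg3 : g (w + l • y) ≤ ‖w + l • y‖ := by
    have := g.le_opNorm (w + l • y)
    rw [hg1, one_mul, Real.norm_eq_abs] at this
    exact (le_abs_self _).trans this
  have hg4 : g (w + l • y) = ‖w‖ * g u + l * g y := by
    conv_lhs => rw [hwu]
    simp only [map_add, map_smul, smul_eq_mul]
  rw [hg4] at hg3
  nlinarith [mul_le_mul_of_nonneg_left hgu' hwpos.le, mul_le_mul_of_nonneg_left hgy' hl]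

end Slice

section Far

variable {H : Type*} [NormedAddCommGroup H] [InnerProductSpace ℝ H]

/-- A farthest point `k` of `K` from `p` is strongly exposed by the direction `k - p`. -/
theorem far_exposed {K : Set H} {k p : H} (hk : ∀ q ∈ K, ‖q - p‖ ≤ ‖k - p‖) {q : H}
    (hq : q ∈ K) :
    ‖k - q‖ ^ 2 ≤ 2 * (inner ℝ (k - p) k - inner ℝ (k - p) q) := by
  have h1 : ‖k - q‖ ^ 2 = ‖k - p‖ ^ 2 - 2 * inner ℝ (k - p) (q - p) + ‖q - p‖ ^ 2 := by
    have : k - q = (k - p) - (q - p) := by abel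
    rw [this, norm_sub_sq_real]
  have h2 : ‖q - p‖ ^ 2 ≤ ‖k - p‖ ^ 2 :=
    pow_le_pow_left₀ (norm_nonneg _) (hk q hq) 2
  have h3 : ‖k - p‖ ^ 2 = inner ℝ (k - p) (k - p) := (real_inner_self_eq_norm_sq _).symm
  have h4 : inner ℝ (k - p) (k - p) - inner ℝ (k - p) (q - p)
      = inner ℝ (k - p) k - inner ℝ (k - p) q := by
    rw [inner_sub_right, inner_sub_right (k - p) q p]; ring
  linarith

/-- A compact set is contained in the closed convex hull of its farthest points. -/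
theorem subset_closure_convexHull_far [CompleteSpace H] {K : Set H} (hK : IsCompact K) :
    K ⊆ closure (convexHull ℝ {k | k ∈ K ∧ ∃ p : H, ∀ q ∈ K, ‖q - p‖ ≤ ‖k - p‖}) := by
  intro c hc
  by_contra hcM
  set M : Set H := closure (convexHull ℝ {k | k ∈ K ∧ ∃ p : H, ∀ q ∈ K, ‖q - p‖ ≤ ‖k - p‖})
    with hM
  have hMconv : Convex ℝ M := (convex_convexHull ℝ _).closure
  obtain ⟨f, s, hfs, hfM⟩ := geometric_hahn_banach_point_closed hMconv isClosed_closure hcM
  set a : H := (InnerProductSpace.toDual ℝ H).symm f with ha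
  have hfa : ∀ y : H, f y = inner ℝ a y := fun y => by
    rw [ha, InnerProductSpace.toDual_symm_apply]
  obtain ⟨B, hB⟩ := hK.isBounded.exists_norm_le
  have hB0 : 0 ≤ B := (norm_nonneg c).trans (hB c hc)
  set γ : ℝ := s - f c with hγ
  have hγpos : 0 < γ := by rw [hγ]; linarith
  set R : ℝ := (B ^ 2 + 1) / γ with hR
  set p : H := R • a with hp
  obtain ⟨k, hkK, hkmax⟩ := hK.exists_isMaxOn ⟨c, hc⟩
    (f := fun q => ‖q - p‖) (by fun_prop)
  have hkfar : ∀ q ∈ K, ‖q - p‖ ≤ ‖k - p‖ := fun q hq => hkmax hq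
  have hkM : k ∈ M := subset_closure (subset_convexHull ℝ _ ⟨hkK, p, hkfar⟩)
  have h1 : s < f k := hfM k hkM
  have h2 : ‖c - p‖ ^ 2 ≤ ‖k - p‖ ^ 2 := pow_le_pow_left₀ (norm_nonneg _) (hkfar c hc) 2
  rw [norm_sub_sq_real, norm_sub_sq_real] at h2
  have h3 : inner ℝ c p = R * f c := by
    rw [hp, inner_smul_right, hfa, real_inner_comm]
  have h4 : inner ℝ k p = R * f k := by
    rw [hp, inner_smul_right, hfa, real_inner_comm]
  rw [h3, h4] at h2
  have h5 : ‖k‖ ^ 2 ≤ B ^ 2 := pow_le_pow_left₀ (norm_nonneg _) (hB k hkK) 2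
  have h6 : 0 ≤ ‖c‖ ^ 2 := sq_nonneg _
  have h7 : R * γ = B ^ 2 + 1 := by rw [hR]; field_simp
  have h8 : 0 < R := by rw [hR]; positivity
  have h9 : R * γ < R * (f k - f c) := by
    apply mul_lt_mul_of_pos_left _ h8
    rw [hγ]; linarith
  nlinarith

/-- Bourgain-type lemma in a Hilbert space: every point of a compact set is approximated by a
convex combination of strongly exposed points. -/
theorem exists_exposed_combination [CompleteSpace H] {K : Set H} (hK : IsCompact K) {c : H}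
    (hc : c ∈ K) {δ : ℝ} (hδ : 0 < δ) :
    ∃ (ι : Type) (_ : Fintype ι) (w : ι → ℝ) (k a : ι → H), (∀ i, 0 ≤ w i) ∧ ∑ i, w i = 1 ∧
      (∀ i, k i ∈ K) ∧
      (∀ i, ∀ q ∈ K, ‖k i - q‖ ^ 2 ≤ 2 * (inner ℝ (a i) (k i) - inner ℝ (a i) q)) ∧
      ‖∑ i, w i • k i - c‖ < δ := by
  have hcM := subset_closure_convexHull_far hK hc
  rw [Metric.mem_closure_iff] at hcM
  obtain ⟨b, hb, hbc⟩ := hcM δ hδ
  rw [mem_convexHull_iff_exists_fintype] at hb
  obtain ⟨ι, hι, w, k, hw0, hw1, hk, hsum⟩ := hb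
  have hk' : ∀ i, ∃ p : H, ∀ q ∈ K, ‖q - p‖ ≤ ‖k i - p‖ := fun i => (hk i).2
  choose p hp using hk'
  refine ⟨ι, hι, w, k, fun i => k i - p i, hw0, hw1, fun i => (hk i).1, ?_, ?_⟩
  · intro i q hq
    exact far_exposed (hp i) hq
  · rw [hsum, ← dist_eq_norm, dist_comm]; exact hbc

end Far

section Coset

variable {V : Type*} [NormedAddCommGroup V] [NormedSpace ℝ V]

/-- Successive choice in finitely many slices. -/
theorem daugavet_slices_sum (hD : HasDaugavetProperty V) {ι : Type} [Fintype ι]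
    (ψ : ι → V →L[ℝ] ℝ) (w : ι → ℝ) (hw0 : ∀ i, 0 ≤ w i) (x : V) (hx : ‖x‖ = 1)
    (β ε : ℝ) (hβ : 0 < β) (hε : 0 < ε) (hε1 : ε < 1) (t : Finset ι) :
    ∃ y : ι → V, (∀ i, ‖y i‖ ≤ 1) ∧ (∀ i ∈ t, ‖ψ i‖ - β < ψ i (y i)) ∧
      (1 + ∑ i ∈ t, w i) * (1 - ε) ^ t.card ≤ ‖x + ∑ i ∈ t, w i • y i‖ := by
  classical
  induction t using Finset.induction_on with
  | empty =>
    refine ⟨fun _ => 0, fun i => by simp, fun i hi => by simp at hi, ?_⟩
    simp [hx]
  | insert j t hj ih =>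
    obtain ⟨y, hy1, hy2, hy3⟩ := ih
    set w₀ : V := x + ∑ i ∈ t, w i • y i with hw₀
    have hsum0 : 0 ≤ ∑ i ∈ t, w i := Finset.sum_nonneg fun i _ => hw0 i
    have hpow0 : 0 < (1 - ε) ^ t.card := pow_pos (by linarith) _
    have hpow1 : (1 - ε) ^ t.card ≤ 1 := pow_le_one₀ (by linarith) (by linarith)
    have hw₀pos : 0 < ‖w₀‖ := lt_of_lt_of_le (by positivity) hy3
    have hw₀ne : w₀ ≠ 0 := norm_pos_iff.mp hw₀pos
    obtain ⟨yj, hyj1, hyj2, hyj3⟩ := daugavet_slice_step hD (ψ j) w₀ hw₀ne β ε hβ hε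
    refine ⟨Function.update y j yj, ?_, ?_, ?_⟩
    · intro i
      by_cases hij : i = j
      · subst hij; simpa using hyj1
      · rw [Function.update_of_ne hij]; exact hy1 i
    · intro i hi
      by_cases hij : i = j
      · subst hij; simpa using hyj2
      · rw [Function.update_of_ne hij]
        exact hy2 i ((Finset.mem_insert.mp hi).resolve_left hij)
    · have hsum : ∑ i ∈ insert j t, w i • Function.update y j yj i
          = w j • yj + ∑ i ∈ t, w i • y i := by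
        rw [Finset.sum_insert hj, Function.update_self]
        congr 1
        apply Finset.sum_congr rfl
        intro i hi
        have hij : i ≠ j := fun h => hj (h ▸ hi)
        rw [Function.update_of_ne hij]
      have hx' : x + ∑ i ∈ insert j t, w i • Function.update y j yj i = w₀ + w j • yj := by
        rw [hsum, hw₀]; abel
      rw [hx', Finset.sum_insert hj, Finset.card_insert_of_notMem hj, pow_succ]
      have h1 := hyj3 (w j) (hw0 j)
      have h2 : (1 + (w j + ∑ i ∈ t, w i)) * ((1 - ε) ^ t.card * (1 - ε))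
          ≤ (‖w₀‖ + w j) * (1 - ε) := by
        have h3 : w j * (1 - ε) ^ t.card ≤ w j := by
          calc w j * (1 - ε) ^ t.card ≤ w j * 1 := by gcongr; exact hw0 j
            _ = w j := mul_one _
        have h4 : (1 + (w j + ∑ i ∈ t, w i)) * (1 - ε) ^ t.card ≤ ‖w₀‖ + w j := by
          nlinarith
        calc (1 + (w j + ∑ i ∈ t, w i)) * ((1 - ε) ^ t.card * (1 - ε))
            = ((1 + (w j + ∑ i ∈ t, w i)) * (1 - ε) ^ t.card) * (1 - ε) := by ring
          _ ≤ (‖w₀‖ + w j) * (1 - ε) := by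
            apply mul_le_mul_of_nonneg_right h4; linarith
      exact h2.trans h1

/-- **Daugavet property, coset version.** In a real normed space with the rank-one Daugavet
property, for every unit vector `x`, every `z` of norm at most one, every closed subspace `S` of
finite codimension and every `ε > 0` there is `v ∈ z + S` with `‖v‖ ≤ 1 + ε` and
`2 - ε ≤ ‖v + x‖`. -/
theorem daugavet_coset (hD : HasDaugavetProperty V) (S : Submodule ℝ V)
    (hS : IsClosed (S : Set V)) [FiniteDimensional ℝ (V ⧸ S)] (x z : V) (hx : ‖x‖ = 1)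
    (hz : ‖z‖ ≤ 1) (ε : ℝ) (hε : 0 < ε) :
    ∃ v : V, v - z ∈ S ∧ ‖v‖ ≤ 1 + ε ∧ 2 - ε ≤ ‖v + x‖ := by
  classical
  have := hS
  set e : (V ⧸ S) ≃L[ℝ] EuclideanSpace ℝ (Fin (Module.finrank ℝ (V ⧸ S))) := toEuclidean with he
  set T : V →L[ℝ] EuclideanSpace ℝ (Fin (Module.finrank ℝ (V ⧸ S))) :=
    (e : (V ⧸ S) →L[ℝ] _).comp S.mkQL with hT
  have hTapp : ∀ y : V, T y = e (Submodule.Quotient.mk y) := fun y => rfl
  set es : EuclideanSpace ℝ (Fin (Module.finrank ℝ (V ⧸ S))) →L[ℝ] (V ⧸ S) :=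
    e.symm.toContinuousLinearMap with hes
  have hesapp : ∀ q, es q = e.symm q := fun q => rfl
  set C : ℝ := ‖es‖ + 1 with hC
  have hCpos : 0 < C := by rw [hC]; positivity
  set δ : ℝ := ε / (4 * C) with hδ
  have hδpos : 0 < δ := by rw [hδ]; positivity
  -- the compact set
  set K : Set (EuclideanSpace ℝ (Fin (Module.finrank ℝ (V ⧸ S)))) :=
    closure (T '' Metric.closedBall 0 1) with hK
  have hKbdd : Bornology.IsBounded K := by
    apply Bornology.IsBounded.closure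
    rw [isBounded_iff_forall_norm_le]
    refine ⟨‖T‖, ?_⟩
    rintro _ ⟨y, hy, rfl⟩
    have hy' : ‖y‖ ≤ 1 := by simpa using hy
    calc ‖T y‖ ≤ ‖T‖ * ‖y‖ := T.le_opNorm y
      _ ≤ ‖T‖ * 1 := by gcongr
      _ = ‖T‖ := mul_one _
  have hKc : IsCompact K := Metric.isCompact_of_isClosed_isBounded isClosed_closure hKbdd
  have hzK : T z ∈ K := subset_closure ⟨z, by simpa using hz, rfl⟩
  obtain ⟨ι, hι, w, k, a, hw0, hw1, hkK, hexp, hcomb⟩ :=
    exists_exposed_combination hKc hzK (δ := δ / 2) (by positivity)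
  -- functionals
  set ψ : ι → V →L[ℝ] ℝ := fun i => (innerSL ℝ (a i)).comp T with hψ
  have hψapp : ∀ i y, ψ i y = inner ℝ (a i) (T y) := fun i y => rfl
  have hψK : ∀ i, ∀ q ∈ K, inner ℝ (a i) q ≤ ‖ψ i‖ := by
    intro i
    have hcl : IsClosed {q : EuclideanSpace ℝ (Fin (Module.finrank ℝ (V ⧸ S))) |
        inner ℝ (a i) q ≤ ‖ψ i‖} :=
      isClosed_le (continuous_const.inner continuous_id) continuous_const
    have hsub : T '' Metric.closedBall 0 1 ⊆ {q | inner ℝ (a i) q ≤ ‖ψ i‖} := by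
      rintro _ ⟨y, hy, rfl⟩
      have hy' : ‖y‖ ≤ 1 := by simpa using hy
      have h1 := (ψ i).le_opNorm y
      rw [Real.norm_eq_abs] at h1
      have h2 : ψ i y ≤ ‖ψ i‖ := by
        calc ψ i y ≤ |ψ i y| := le_abs_self _
          _ ≤ ‖ψ i‖ * ‖y‖ := h1
          _ ≤ ‖ψ i‖ * 1 := by gcongr
          _ = ‖ψ i‖ := mul_one _
      exact h2
    exact fun q hq => closure_minimal hsub hcl hq
  -- parameters
  set n : ℕ := Fintype.card ι with hn
  set ε' : ℝ := min (1 / 2) (ε / (4 * (n + 1))) with hε'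
  have hε'pos : 0 < ε' := lt_min (by norm_num) (by positivity)
  have hε'1 : ε' < 1 := lt_of_le_of_lt (min_le_left _ _) (by norm_num)
  have hε'2 : (n : ℝ) * ε' ≤ ε / 4 := by
    have h1 : ε' ≤ ε / (4 * (n + 1)) := min_le_right _ _
    have h2 : (n : ℝ) * (ε / (4 * (n + 1))) ≤ ε / 4 := by
      rw [mul_div_assoc', div_le_div_iff₀ (by positivity) (by norm_num)]
      nlinarith [Nat.cast_nonneg (α := ℝ) n]
    calc (n : ℝ) * ε' ≤ (n : ℝ) * (ε / (4 * (n + 1))) := by gcongr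
      _ ≤ ε / 4 := h2
  set β : ℝ := (δ / 2) ^ 2 / 2 with hβ
  have hβpos : 0 < β := by rw [hβ]; positivity
  obtain ⟨y, hy1, hy2, hy3⟩ :=
    daugavet_slices_sum hD ψ w hw0 x hx β ε' hβpos hε'pos hε'1 Finset.univ
  rw [hw1, Finset.card_univ] at hy3
  set v' : V := ∑ i, w i • y i with hv'
  -- norm of v'
  have hv'norm : ‖v'‖ ≤ 1 := by
    calc ‖v'‖ ≤ ∑ i, ‖w i • y i‖ := norm_sum_le _ _
      _ ≤ ∑ i, w i := by
        apply Finset.sum_le_sum
        intro i _
        rw [norm_smul, Real.norm_eq_abs, abs_of_nonneg (hw0 i)]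
        calc w i * ‖y i‖ ≤ w i * 1 := by gcongr; exact hw0 i; exact hy1 i
          _ = w i := mul_one _
      _ = 1 := hw1
  -- T v' is close to the combination
  have hclose : ∀ i, ‖T (y i) - k i‖ ≤ δ / 2 := by
    intro i
    have hTy : T (y i) ∈ K := subset_closure ⟨y i, by simpa using hy1 i, rfl⟩
    have h1 := hexp i (T (y i)) hTy
    have h2 := hy2 i (Finset.mem_univ i)
    rw [hψapp] at h2
    have h3 := hψK i (k i) (hkK i)
    have h4 : ‖k i - T (y i)‖ ^ 2 ≤ (δ / 2) ^ 2 := by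
      have : 2 * β = (δ / 2) ^ 2 := by rw [hβ]; ring
      linarith
    rw [norm_sub_rev]
    exact le_of_sq_le_sq h4 (by positivity)
  have hTv' : ‖T v' - ∑ i, w i • k i‖ ≤ δ / 2 := by
    have : T v' - ∑ i, w i • k i = ∑ i, w i • (T (y i) - k i) := by
      rw [hv', map_sum, ← Finset.sum_sub_distrib]
      apply Finset.sum_congr rfl
      intro i _
      rw [map_smul, smul_sub]
    rw [this]
    calc ‖∑ i, w i • (T (y i) - k i)‖ ≤ ∑ i, ‖w i • (T (y i) - k i)‖ := norm_sum_le _ _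
      _ ≤ ∑ i, w i * (δ / 2) := by
        apply Finset.sum_le_sum
        intro i _
        rw [norm_smul, Real.norm_eq_abs, abs_of_nonneg (hw0 i)]
        exact mul_le_mul_of_nonneg_left (hclose i) (hw0 i)
      _ = δ / 2 := by rw [← Finset.sum_mul, hw1, one_mul]
  have hTvz : ‖T (v' - z)‖ < δ := by
    have : T (v' - z) = (T v' - ∑ i, w i • k i) + (∑ i, w i • k i - T z) := by
      rw [map_sub]; abel
    rw [this]
    calc ‖(T v' - ∑ i, w i • k i) + (∑ i, w i • k i - T z)‖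
        ≤ ‖T v' - ∑ i, w i • k i‖ + ‖∑ i, w i • k i - T z‖ := norm_add_le _ _
      _ < δ / 2 + δ / 2 := by linarith
      _ = δ := by ring
  -- back to the quotient
  have hmk : ‖(Submodule.Quotient.mk (v' - z) : V ⧸ S)‖ ≤ ε / 4 := by
    have h1 : (Submodule.Quotient.mk (v' - z) : V ⧸ S) = es (T (v' - z)) := by
      rw [hesapp, hTapp, ContinuousLinearEquiv.symm_apply_apply]
    rw [h1]
    have h2 := es.le_opNorm (T (v' - z))
    have h3 : ‖es‖ * ‖T (v' - z)‖ ≤ C * δ := by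
      apply mul_le_mul _ hTvz.le (norm_nonneg _) hCpos.le
      rw [hC]; linarith
    have h4 : C * δ = ε / 4 := by rw [hδ]; field_simp
    calc ‖es (T (v' - z))‖ ≤ ‖es‖ * ‖T (v' - z)‖ := h2
      _ ≤ C * δ := h3
      _ = ε / 4 := h4
  obtain ⟨r, hr1, hr2⟩ := Submodule.Quotient.norm_mk_lt
    (Submodule.Quotient.mk (v' - z) : V ⧸ S) (ε := ε / 4) (by positivity)
  have hrnorm : ‖r‖ ≤ ε / 2 := by linarith
  have hrS : r - (v' - z) ∈ S := (Submodule.Quotient.eq S).mp hr1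
  refine ⟨v' - r, ?_, ?_, ?_⟩
  · have : v' - r - z = -(r - (v' - z)) := by abel
    rw [this]; exact S.neg_mem hrS
  · calc ‖v' - r‖ ≤ ‖v'‖ + ‖r‖ := norm_sub_le _ _
      _ ≤ 1 + ε := by linarith
  · have h1 : (1 : ℝ) + n * (-ε') ≤ (1 + -ε') ^ n := one_add_mul_le_pow (by linarith) n
    have h2 : 1 - ε / 4 ≤ (1 - ε') ^ n := by
      have : (1 : ℝ) + -ε' = 1 - ε' := by ring
      rw [this] at h1
      linarith
    have h3 : 2 - ε / 2 ≤ ‖x + v'‖ := by
      have : (1 + 1) * (1 - ε') ^ n ≤ ‖x + v'‖ := hy3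
      linarith
    have h4 : ‖x + v'‖ ≤ ‖v' - r + x‖ + ‖r‖ := by
      have : x + v' = (v' - r + x) + r := by abel
      rw [this]; exact norm_add_le _ _
    linarith

end Coset

end Crest.Agent.Helper67
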