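import Mathlib
import Crest.Prelude.Def_DaugavetL1
import Crest.Agent.Helper67.Daugavet

/-!
# Upper bounds for the asymptotic moduli of a Daugavet space, and no AUC renorming

Consequences of `daugavet_coset`, for a real normed space with the rank-one Daugavet property
and then for `RealBanach` records (in particular `L1Subspace.toRealBanach P E hcl`).
-/

set_option autoImplicit false

namespace Crest.Agent.Helper67

open Crest.AnalysisR Crest.AnalysisR.L1Subspace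

section Generic

variable {V : Type*} [NormedAddCommGroup V] [NormedSpace ℝ V]

/-- In a Daugavet space every closed finite-codimensional subspace contains a unit vector `y`
with `‖x + 2 y‖ ≤ 1 + ε`. -/
theorem daugavet_exists_unit (hD : HasDaugavetProperty V) (S : Submodule ℝ V)
    (hS : IsClosed (S : Set V)) [FiniteDimensional ℝ (V ⧸ S)] (x : V) (hx : ‖x‖ = 1)
    (ε : ℝ) (hε : 0 < ε) :
    ∃ y ∈ S, ‖y‖ = 1 ∧ ‖x + (2 : ℝ) • y‖ ≤ 1 + ε := by
  set ε' : ℝ := min (ε / 2) 1 with hε'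
  have hε'pos : 0 < ε' := lt_min (by linarith) one_pos
  have hε'1 : ε' ≤ ε / 2 := min_le_left _ _
  have hε'2 : ε' ≤ 1 := min_le_right _ _
  obtain ⟨v, hvS, hv1, hv2⟩ := daugavet_coset hD S hS x (-x) hx (by rw [norm_neg, hx]) ε' hε'pos
  have hvS' : v + x ∈ S := by simpa using hvS
  set m : ℝ := ‖v + x‖ with hm
  have hmpos : 0 < m := by linarith
  have hm2 : m ≤ 2 + ε' := by
    calc m ≤ ‖v‖ + ‖x‖ := norm_add_le _ _
      _ ≤ 2 + ε' := by rw [hx]; linarith
  refine ⟨(-m⁻¹) • (v + x), S.smul_mem _ hvS', ?_, ?_⟩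
  · rw [norm_smul, norm_neg, norm_inv, Real.norm_eq_abs, abs_of_pos hmpos, ← hm,
      inv_mul_cancel₀ hmpos.ne']
  · have h1 : x + (2 : ℝ) • ((-m⁻¹) • (v + x)) = -v + (1 - 2 * m⁻¹) • (v + x) := by
      rw [smul_smul, sub_smul, one_smul]
      have : (2 : ℝ) * -m⁻¹ = -(2 * m⁻¹) := by ring
      rw [this, neg_smul]; abel
    rw [h1]
    have h2 : ‖(1 - 2 * m⁻¹) • (v + x)‖ = |m - 2| := by
      rw [norm_smul, ← hm, Real.norm_eq_abs]
      have : |1 - 2 * m⁻¹| * m = |(1 - 2 * m⁻¹) * m| := by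
        rw [abs_mul, abs_of_pos hmpos]
      rw [this]
      congr 1
      field_simp
    have h3 : |m - 2| ≤ ε' := by
      rw [abs_le]; constructor <;> linarith
    calc ‖-v + (1 - 2 * m⁻¹) • (v + x)‖ ≤ ‖-v‖ + ‖(1 - 2 * m⁻¹) • (v + x)‖ := norm_add_le _ _
      _ ≤ (1 + ε') + ε' := by rw [norm_neg, h2]; linarith
      _ ≤ 1 + ε := by linarith

/-- Convexity: from `‖x + 2 y‖ ≤ 1 + ε` to all `t > 0`. -/
theorem norm_add_smul_le_of_two {x y : V} (hx : ‖x‖ = 1) (hy : ‖y‖ = 1) {ε : ℝ} (hε : 0 ≤ ε)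
    (h2 : ‖x + (2 : ℝ) • y‖ ≤ 1 + ε) {t : ℝ} (ht : 0 < t) :
    ‖x + t • y‖ ≤ 1 + max 0 (t - 2) + ε := by
  rcases le_total t 2 with h | h
  · have h1 : x + t • y = (1 - t / 2) • x + (t / 2) • (x + (2 : ℝ) • y) := by
      rw [smul_add, smul_smul, sub_smul, one_smul]
      have : t / 2 * 2 = t := by ring
      rw [this]; abel
    rw [h1]
    have h3 : (0 : ℝ) ≤ max 0 (t - 2) := le_max_left _ _
    calc ‖(1 - t / 2) • x + (t / 2) • (x + (2 : ℝ) • y)‖
        ≤ ‖(1 - t / 2) • x‖ + ‖(t / 2) • (x + (2 : ℝ) • y)‖ := norm_add_le _ _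
      _ = (1 - t / 2) * 1 + (t / 2) * ‖x + (2 : ℝ) • y‖ := by
        rw [norm_smul, norm_smul, hx, Real.norm_eq_abs, Real.norm_eq_abs,
          abs_of_nonneg (by linarith), abs_of_nonneg (by linarith)]
      _ ≤ (1 - t / 2) * 1 + (t / 2) * (1 + ε) := by gcongr
      _ ≤ 1 + max 0 (t - 2) + ε := by nlinarith
  · have h1 : x + t • y = (x + (2 : ℝ) • y) + (t - 2) • y := by
      rw [sub_smul]; abel
    rw [h1]
    have h3 : t - 2 ≤ max 0 (t - 2) := le_max_right _ _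
    calc ‖(x + (2 : ℝ) • y) + (t - 2) • y‖ ≤ ‖x + (2 : ℝ) • y‖ + ‖(t - 2) • y‖ := norm_add_le _ _
      _ = ‖x + (2 : ℝ) • y‖ + (t - 2) := by
        rw [norm_smul, hy, mul_one, Real.norm_eq_abs, abs_of_nonneg (by linarith)]
      _ ≤ 1 + max 0 (t - 2) + ε := by linarith

/-- One-sided upper bound in a Daugavet space. -/
theorem daugavet_oneSided_le (hD : HasDaugavetProperty V) (S : Submodule ℝ V)
    (hS : IsClosed (S : Set V)) [FiniteDimensional ℝ (V ⧸ S)] (x : V) (hx : ‖x‖ = 1)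
    (t : ℝ) (ht : 0 < t) (η : ℝ) (hη : 0 < η) :
    ∃ y ∈ S, ‖y‖ = 1 ∧ ‖x + t • y‖ - 1 ≤ max 0 (t - 2) + η := by
  obtain ⟨y, hyS, hy1, hy2⟩ := daugavet_exists_unit hD S hS x hx η hη
  refine ⟨y, hyS, hy1, ?_⟩
  have := norm_add_smul_le_of_two hx hy1 hη.le hy2 ht
  linarith

/-- Midpoint upper bound in a Daugavet space. -/
theorem daugavet_midpoint_le (hD : HasDaugavetProperty V) (S : Submodule ℝ V)
    (hS : IsClosed (S : Set V)) [FiniteDimensional ℝ (V ⧸ S)] (x : V) (hx : ‖x‖ = 1)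
    (t : ℝ) (ht : 0 < t) (η : ℝ) (hη : 0 < η) :
    ∃ y ∈ S, ‖y‖ = 1 ∧ (‖x + t • y‖ + ‖x - t • y‖) / 2 - 1 ≤ max (t / 2) (t - 1) + η := by
  obtain ⟨y, hyS, hy1, hy2⟩ := daugavet_exists_unit hD S hS x hx η hη
  refine ⟨y, hyS, hy1, ?_⟩
  have h1 := norm_add_smul_le_of_two hx hy1 hη.le hy2 ht
  have h2 : ‖x - t • y‖ ≤ 1 + t := by
    calc ‖x - t • y‖ ≤ ‖x‖ + ‖t • y‖ := norm_sub_le _ _
      _ = 1 + t := by rw [hx, norm_smul, hy1, mul_one, Real.norm_eq_abs, abs_of_pos ht]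
  have h3 : max 0 (t - 2) + t ≤ 2 * max (t / 2) (t - 1) := by
    rcases le_total t 2 with h | h
    · rw [max_eq_left (by linarith)]
      have := le_max_left (t / 2) (t - 1)
      linarith
    · rw [max_eq_right (by linarith)]
      have := le_max_right (t / 2) (t - 1)
      linarith
  linarith

/-- A Daugavet space contains a unit vector. -/
theorem daugavet_exists_norm_one (hD : HasDaugavetProperty V) : ∃ u : V, ‖u‖ = 1 := by
  have h := hD 0 0
  rw [ContinuousLinearMap.norm_smulRight_apply, norm_zero, zero_mul, add_zero] at h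
  have h0 : ∃ x : V, x ≠ 0 := by
    by_contra hne
    push Not at hne
    have : ContinuousLinearMap.id ℝ V + (0 : V →L[ℝ] ℝ).smulRight (0 : V) = 0 := by
      ext x
      simp [hne x]
    rw [this, norm_zero] at h
    norm_num at h
  obtain ⟨x, hx⟩ := h0
  have hxpos : 0 < ‖x‖ := norm_pos_iff.mpr hx
  refine ⟨(‖x‖)⁻¹ • x, ?_⟩
  rw [norm_smul, norm_inv, norm_norm, inv_mul_cancel₀ hxpos.ne']

/-- No equivalent norm on a Daugavet space is asymptotically uniformly convex. -/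
theorem daugavet_not_auc (hD : HasDaugavetProperty V) (N : V → ℝ)
    (hsub : ∀ x y : V, N (x + y) ≤ N x + N y) (hhom : ∀ (a : ℝ) (x : V), N (a • x) = |a| * N x)
    (a b : ℝ) (ha : 0 < a) (hab : ∀ x : V, a * ‖x‖ ≤ N x ∧ N x ≤ b * ‖x‖) :
    ¬ (∀ t : ℝ, 0 < t → ∃ c : ℝ, 0 < c ∧ ∀ x : V, N x = 1 → ∃ S : Submodule ℝ V,
        IsClosed (S : Set V) ∧ FiniteDimensional ℝ (V ⧸ S) ∧
        ∀ y ∈ S, N y = 1 → c ≤ N (x + t • y) - 1) := by
  intro hauc
  obtain ⟨u₀, hu₀⟩ := daugavet_exists_norm_one hD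
  -- the supremum of N over the unit sphere
  set s : Set ℝ := N '' {z : V | ‖z‖ = 1} with hs
  have hsne : s.Nonempty := ⟨N u₀, u₀, hu₀, rfl⟩
  have hsbdd : BddAbove s := by
    refine ⟨b, ?_⟩
    rintro _ ⟨z, hz, rfl⟩
    have := (hab z).2
    have hz' : ‖z‖ = 1 := hz
    rw [hz', mul_one] at this
    exact this
  set R : ℝ := sSup s with hR
  have hRsphere : ∀ z : V, ‖z‖ = 1 → N z ≤ R := fun z hz => le_csSup hsbdd ⟨z, hz, rfl⟩
  have hNpos : ∀ z : V, ‖z‖ = 1 → a ≤ N z := by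
    intro z hz
    have := (hab z).1
    rw [hz, mul_one] at this
    exact this
  have hRpos : 0 < R := lt_of_lt_of_le ha ((hNpos u₀ hu₀).trans (hRsphere u₀ hu₀))
  have hN0 : N 0 = 0 := by
    have := hhom 0 0
    rw [zero_smul, abs_zero, zero_mul] at this
    exact this
  have hRall : ∀ z : V, N z ≤ R * ‖z‖ := by
    intro z
    by_cases hz : z = 0
    · subst hz; rw [hN0, norm_zero, mul_zero]
    · have hzpos : 0 < ‖z‖ := norm_pos_iff.mpr hz
      have h1 : z = ‖z‖ • ((‖z‖)⁻¹ • z) := by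
        rw [smul_smul, mul_inv_cancel₀ hzpos.ne', one_smul]
      have h2 : ‖(‖z‖)⁻¹ • z‖ = 1 := by
        rw [norm_smul, norm_inv, norm_norm, inv_mul_cancel₀ hzpos.ne']
      have h3 : N z = ‖z‖ * N ((‖z‖)⁻¹ • z) := by
        conv_lhs => rw [h1]
        rw [hhom, abs_of_pos hzpos]
      rw [h3, mul_comm R]
      exact mul_le_mul_of_nonneg_left (hRsphere _ h2) hzpos.le
  -- AUC at t' = 2a/R
  set t' : ℝ := 2 * a / R with ht'
  have ht'pos : 0 < t' := by rw [ht']; positivity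
  obtain ⟨c, hcpos, hc⟩ := hauc t' ht'pos
  -- near-maximiser
  have hlt : R / (1 + c / 2) < R := by
    rw [div_lt_iff₀ (by positivity)]
    nlinarith
  obtain ⟨_, ⟨z₀, hz₀', rfl⟩, hz₀R⟩ := exists_lt_of_lt_csSup hsne hlt
  have hz₀ : ‖z₀‖ = 1 := hz₀'
  have hz₀R' : R < N z₀ * (1 + c / 2) := by
    rwa [div_lt_iff₀ (by positivity)] at hz₀R
  have hNz₀pos : 0 < N z₀ := lt_of_lt_of_le ha (hNpos z₀ hz₀)
  have hNz₀le : N z₀ ≤ R := hRsphere z₀ hz₀
  set x : V := (N z₀)⁻¹ • z₀ with hx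
  have hNx : N x = 1 := by
    rw [hx, hhom, abs_of_pos (inv_pos.mpr hNz₀pos), inv_mul_cancel₀ hNz₀pos.ne']
  obtain ⟨S, hScl, hSfin, hSauc⟩ := hc x hNx
  set η : ℝ := c / (2 + c) with hη
  have hηpos : 0 < η := by rw [hη]; positivity
  obtain ⟨y₀, hy₀S, hy₀1, hy₀2⟩ := daugavet_exists_unit hD S hScl z₀ hz₀ η hηpos
  have hNy₀pos : 0 < N y₀ := lt_of_lt_of_le ha (hNpos y₀ hy₀1)
  set y : V := (N y₀)⁻¹ • y₀ with hy
  have hyS : y ∈ S := S.smul_mem _ hy₀S
  have hNy : N y = 1 := by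
    rw [hy, hhom, abs_of_pos (inv_pos.mpr hNy₀pos), inv_mul_cancel₀ hNy₀pos.ne']
  have hc1 : 1 + c ≤ N (x + t' • y) := by
    have := hSauc y hyS hNy
    linarith
  set τ : ℝ := 2 * N y₀ / N z₀ with hτ
  have hτpos : 0 < τ := by rw [hτ]; positivity
  have hτt' : t' ≤ τ := by
    rw [ht', hτ, div_le_div_iff₀ hRpos hNz₀pos]
    have h1 : a ≤ N y₀ := hNpos y₀ hy₀1
    nlinarith
  -- z₀ + 2 y₀ = N z₀ • (x + τ • y)
  have hdecomp : z₀ + (2 : ℝ) • y₀ = N z₀ • (x + τ • y) := by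
    rw [smul_add, hx, hy, smul_smul, smul_smul, smul_smul, mul_inv_cancel₀ hNz₀pos.ne', one_smul]
    congr 2
    rw [hτ]
    field_simp
  have hNdecomp : N (z₀ + (2 : ℝ) • y₀) = N z₀ * N (x + τ • y) := by
    rw [hdecomp, hhom, abs_of_pos hNz₀pos]
  -- convexity
  set ρ : ℝ := t' / τ with hρ
  have hρpos : 0 < ρ := by rw [hρ]; positivity
  have hρ1 : ρ ≤ 1 := by rw [hρ, div_le_one hτpos]; exact hτt'
  have hconv : x + t' • y = (1 - ρ) • x + ρ • (x + τ • y) := by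
    have hρτ : ρ * τ = t' := by rw [hρ]; field_simp
    rw [← hρτ, mul_smul, smul_add, sub_smul, one_smul]; abel
  have hc2 : N (x + t' • y) ≤ (1 - ρ) + ρ * N (x + τ • y) := by
    rw [hconv]
    calc N ((1 - ρ) • x + ρ • (x + τ • y)) ≤ N ((1 - ρ) • x) + N (ρ • (x + τ • y)) := hsub _ _
      _ = (1 - ρ) + ρ * N (x + τ • y) := by
        rw [hhom (1 - ρ) x, hhom ρ (x + τ • y), hNx, abs_of_nonneg (by linarith),
          abs_of_pos hρpos, mul_one]
  have hc3 : 1 + c ≤ N (x + τ • y) := by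
    by_contra hlt'
    push Not at hlt'
    have : (1 - ρ) + ρ * N (x + τ • y) < 1 + c := by nlinarith
    linarith
  -- upper bound
  have hup : N (z₀ + (2 : ℝ) • y₀) ≤ R * (1 + η) :=
    (hRall _).trans (mul_le_mul_of_nonneg_left hy₀2 hRpos.le)
  rw [hNdecomp] at hup
  have h1 : N z₀ * (1 + c) ≤ R * (1 + η) :=
    (mul_le_mul_of_nonneg_left hc3 hNz₀pos.le).trans hup
  have h2 : (1 + η) * (1 + c / 2) = 1 + c := by
    rw [hη]; field_simp; ring
  have h3 : N z₀ * (1 + c) * (1 + c / 2) ≤ R * (1 + c) := by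
    calc N z₀ * (1 + c) * (1 + c / 2) ≤ R * (1 + η) * (1 + c / 2) := by
          apply mul_le_mul_of_nonneg_right h1; positivity
      _ = R * (1 + c) := by rw [mul_assoc, h2]
  have h4 : N z₀ * (1 + c / 2) ≤ R := by
    have h5 : (N z₀ * (1 + c / 2)) * (1 + c) ≤ R * (1 + c) := by linarith
    exact le_of_mul_le_mul_right h5 (by positivity)
  linarith

end Generic

section Record

/-- One-sided upper bound for a `RealBanach` record with the Daugavet property. -/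
theorem oneSidedLE_of_daugavet (B : RealBanach)
    (hD : @HasDaugavetProperty B.X B.normed B.space) (t : ℝ) (ht : 0 < t) :
    B.OneSidedModulusLE B.norm t (max 0 (t - 2)) := by
  let _ := B.normed; let _ := B.space
  intro x hx F hF η hη
  obtain ⟨S, rfl, hScl, hSfin⟩ := hF
  obtain ⟨y, hyS, hy1, hy2⟩ := daugavet_oneSided_le hD S hScl x hx t ht η hη
  exact ⟨y, hyS, hy1, hy2⟩

/-- Midpoint upper bound for a `RealBanach` record with the Daugavet property. -/
theorem midpointLE_of_daugavet (B : RealBanach)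
    (hD : @HasDaugavetProperty B.X B.normed B.space) (t : ℝ) (ht : 0 < t) :
    B.MidpointModulusLE B.norm t (max (t / 2) (t - 1)) := by
  let _ := B.normed; let _ := B.space
  intro x hx F hF η hη
  obtain ⟨S, rfl, hScl, hSfin⟩ := hF
  obtain ⟨y, hyS, hy1, hy2⟩ := daugavet_midpoint_le hD S hScl x hx t ht η hη
  exact ⟨y, hyS, hy1, hy2⟩

/-- No equivalent norm on a `RealBanach` record with the Daugavet property is AUC. -/
theorem not_auc_of_daugavet (B : RealBanach)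
    (hD : @HasDaugavetProperty B.X B.normed B.space) (N : B.X → ℝ) (hN : B.IsEquivNorm N) :
    ¬ B.IsAUC N := by
  let _ := B.normed; let _ := B.space
  obtain ⟨hsub, hhom, a, b, ha, hab⟩ := hN
  intro hauc
  apply daugavet_not_auc hD N hsub hhom a b ha hab
  intro t ht
  obtain ⟨c, hc, h⟩ := hauc t ht
  refine ⟨c, hc, fun x hx => ?_⟩
  obtain ⟨F, ⟨S, rfl, hScl, hSfin⟩, hF⟩ := h x hx
  exact ⟨S, hScl, hSfin, hF⟩

variable {Ω : Type} [MeasurableSpace Ω]

/-- S0167, one-sided upper bound. -/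
theorem S0167_oneSidedLE (P : MeasureTheory.Measure Ω)
    (E : Submodule ℝ (MeasureTheory.Lp ℝ 1 P)) (hcl : IsClosed (E : Set (MeasureTheory.Lp ℝ 1 P)))
    (hD : HasDaugavetProperty E) (t : ℝ) (ht : 0 < t) :
    (toRealBanach P E hcl).OneSidedModulusLE (toRealBanach P E hcl).norm t (max 0 (t - 2)) :=
  oneSidedLE_of_daugavet (toRealBanach P E hcl) hD t ht

/-- S0167, midpoint upper bound. -/
theorem S0167_midpointLE (P : MeasureTheory.Measure Ω)
    (E : Submodule ℝ (MeasureTheory.Lp ℝ 1 P)) (hcl : IsClosed (E : Set (MeasureTheory.Lp ℝ 1 P)))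
    (hD : HasDaugavetProperty E) (t : ℝ) (ht : 0 < t) :
    (toRealBanach P E hcl).MidpointModulusLE (toRealBanach P E hcl).norm t
      (max (t / 2) (t - 1)) :=
  midpointLE_of_daugavet (toRealBanach P E hcl) hD t ht

/-- S0167, no equivalent AUC norm. -/
theorem S0167_not_auc (P : MeasureTheory.Measure Ω)
    (E : Submodule ℝ (MeasureTheory.Lp ℝ 1 P)) (hcl : IsClosed (E : Set (MeasureTheory.Lp ℝ 1 P)))
    (hD : HasDaugavetProperty E) (N : E → ℝ) (hN : (toRealBanach P E hcl).IsEquivNorm N) :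
    ¬ (toRealBanach P E hcl).IsAUC N :=
  not_auc_of_daugavet (toRealBanach P E hcl) hD N hN

end Record

end Crest.Agent.Helper67
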